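import Vale.Agent.Lib.P327.RMain

namespace Vale.Agent.Results.P327.ARigidity

open Vale.Agent.Lib.P327

/-- The rigidity conjecture for the Turing degrees, deduced from the theorem of Slaman and Woodin
listed as known in the problem file. The hypothesis `hSW` says that every automorphism of the
Turing degrees is induced by a Borel function on Cantor space; it follows from the Slaman-Woodin
theorem that every automorphism is induced by an arithmetically definable function, since such
functions are Borel. The conclusion is that every automorphism is the identity. -/
theorem result
    (hSW : ∀ π : TDeg ≃o TDeg, ∃ F : (ℕ → Bool) → ℕ → Bool,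
      Measurable F ∧ ∀ X, π (TDeg.of X) = TDeg.of (F X)) :
    ∀ π : TDeg ≃o TDeg, π = OrderIso.refl TDeg := by
  intro π
  obtain ⟨F, hFm, hF⟩ := hSW π
  obtain ⟨E, hEm, hE⟩ := hSW π.symm
  exact rigid_of_measurable π F E hF hE hFm hEm

end Vale.Agent.Results.P327.ARigidity
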