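import Vale.Agent.Lib.P327.Main

namespace Vale.Agent.Results.P327.AdditiveRigid

open Vale.Agent.Lib.P327

/-- Let `F` be a homeomorphism of Cantor space which is additive for pointwise xor and which
preserves Turing reducibility in both directions. Then `F X` is Turing equivalent to `X` for
every `X`. -/
theorem result (F : (ℕ → Bool) → ℕ → Bool)
    (hadd : ∀ X Y, F (fun n => xor (X n) (Y n)) = fun n => xor (F X n) (F Y n))
    (hcont : Continuous F) (hbij : Function.Bijective F)
    (hred : ∀ X Y, TuringReducible (chi X) (chi Y) ↔ TuringReducible (chi (F X)) (chi (F Y)))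
    (X : ℕ → Bool) : TuringEquivalent (chi (F X)) (chi X) := by
  have h := main_equiv F hadd hcont hbij (fun X Y => by
    have := hred Y X
    simpa only [TuringReducible, RecursiveIn.iff_nat] using this) X
  constructor
  · exact RecursiveIn.iff_nat.2 h.2
  · exact RecursiveIn.iff_nat.2 h.1

end Vale.Agent.Results.P327.AdditiveRigid
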