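import Vale.Agent.Lib.P327.RMain

namespace Vale.Agent.Results.P327.BorelRigid

open Vale.Agent.Lib.P327

/-- An automorphism of the partial order of Turing degrees is the identity as soon as it and its
inverse are induced by Borel functions on Cantor space. -/
theorem result (π : TDeg ≃o TDeg) (F E : (ℕ → Bool) → ℕ → Bool)
    (hF : ∀ X, π (TDeg.of X) = TDeg.of (F X))
    (hE : ∀ X, π.symm (TDeg.of X) = TDeg.of (E X))
    (hFm : Measurable F) (hEm : Measurable E) :
    π = OrderIso.refl TDeg :=
  rigid_of_measurable π F E hF hE hFm hEm

end Vale.Agent.Results.P327.BorelRigid
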