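import Vale.Agent.Lib.P327.General

namespace Vale.Agent.Results.P327.ContAddAut

open Vale.Agent.Lib.P327

/-- Every automorphism of the partial order of Turing degrees which is induced by a continuous map
of Cantor space, additive for pointwise xor, is the identity. -/
theorem result (π : TDeg ≃o TDeg) (F : (ℕ → Bool) → ℕ → Bool)
    (hadd : ∀ X Y, F (fun n => xor (X n) (Y n)) = fun n => xor (F X n) (F Y n))
    (hcont : Continuous F)
    (hF : ∀ X, π (TDeg.of X) = TDeg.of (F X)) :
    π = OrderIso.refl TDeg := by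
  have hiff : ∀ X Y, Nat.RecursiveIn {chi Y} (chi X) ↔
      Nat.RecursiveIn {chi (F Y)} (chi (F X)) := by
    intro X Y
    have h1 : TDeg.of X ≤ TDeg.of Y ↔ TDeg.of (F X) ≤ TDeg.of (F Y) := by
      rw [← hF, ← hF]
      exact π.le_iff_le.symm
    simpa only [TDeg.of_le_of, TuringReducible, RecursiveIn.iff_nat] using h1
  have hsurj : ∀ D, ∃ X, Nat.RecursiveIn {chi D} (chi (F X)) ∧
      Nat.RecursiveIn {chi (F X)} (chi D) := by
    intro D
    obtain ⟨X, hX⟩ := Quotient.exists_rep (π.symm (TDeg.of D))
    refine ⟨X, ?_⟩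
    have h1 : TDeg.of (F X) = TDeg.of D := by
      rw [← hF]
      have : TDeg.of X = π.symm (TDeg.of D) := hX
      rw [this]
      simp
    have h2 := Quotient.exact h1
    exact ⟨RecursiveIn.iff_nat.1 h2.1, RecursiveIn.iff_nat.1 h2.2⟩
  ext a
  induction a using Quotient.inductionOn with
  | h X =>
    have h := main_general hadd hcont hiff hsurj X
    show π (TDeg.of X) = TDeg.of X
    rw [hF]
    exact Quotient.sound ⟨RecursiveIn.iff_nat.2 h.1, RecursiveIn.iff_nat.2 h.2⟩

end Vale.Agent.Results.P327.ContAddAut
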