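import Vale.Agent.Lib.P327.AutRigid

namespace Vale.Agent.Results.P327.LocalAffine

open Vale.Agent.Lib.P327

/-- An automorphism of the partial order of Turing degrees is the identity as soon as it has a
representative which, on some basic clopen cylinder of Cantor space, is continuous and affine
for pointwise xor. Outside that cylinder the representative is arbitrary. -/
theorem result (π : TDeg ≃o TDeg) (F : (ℕ → Bool) → ℕ → Bool) (u : ℕ) (Y₀ : ℕ → Bool)
    (hF : ∀ X, π (TDeg.of X) = TDeg.of (F X))
    (hcont : ContinuousOn F (PiNat.cylinder Y₀ u))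
    (haff : ∀ A ∈ PiNat.cylinder Y₀ u, ∀ B ∈ PiNat.cylinder Y₀ u, ∀ C ∈ PiNat.cylinder Y₀ u,
      F (fun n => xor (xor (A n) (B n)) (C n)) =
        fun n => xor (xor (F A n) (F B n)) (F C n)) :
    π = OrderIso.refl TDeg :=
  aut_rigid_local π F u Y₀ hF hcont haff

end Vale.Agent.Results.P327.LocalAffine
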